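import Vale.Agent.P126.Defs

namespace Vale.Agent.P126

open scoped Pointwise

def cube (n : ℕ) (s : ℝ) : Set (E n) := {x | ∀ i, |x i| ≤ s}

def cross (n : ℕ) (s : ℝ) : Set (E n) := {x | ∑ i, |x i| ≤ s}

theorem cross_subset_cube (n : ℕ) (s : ℝ) : cross n s ⊆ cube n s := by
  intro x hx i
  exact le_trans (Finset.single_le_sum (f := fun i => |x i|) (fun j _ => abs_nonneg _)
    (Finset.mem_univ i)) hx

theorem isCompact_cube (n : ℕ) (s : ℝ) : IsCompact (cube n s) := by
  have h1 : IsCompact (Set.pi Set.univ (fun _ : Fin n => Set.Icc (-s) s)) :=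
    isCompact_univ_pi fun _ => isCompact_Icc
  have h2 : cube n s = (EuclideanSpace.equiv (Fin n) ℝ).toHomeomorph ⁻¹'
      (Set.pi Set.univ (fun _ : Fin n => Set.Icc (-s) s)) := by
    ext x
    simp [cube, abs_le, Pi.le_def, forall_and]
  rw [h2]
  exact (Homeomorph.isCompact_preimage _).2 h1

theorem isClosed_cross (n : ℕ) (s : ℝ) : IsClosed (cross n s) := by
  unfold cross
  exact isClosed_le (by fun_prop) continuous_const

theorem isCompact_cross (n : ℕ) (s : ℝ) : IsCompact (cross n s) :=
  (isCompact_cube n s).of_isClosed_subset (isClosed_cross n s) (cross_subset_cube n s)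

theorem abs_comb_le {n : ℕ} (x y : E n) {a b : ℝ} (ha : 0 ≤ a) (hb : 0 ≤ b) (i : Fin n) :
    |(a • x + b • y) i| ≤ a * |x i| + b * |y i| := by
  simp only [PiLp.add_apply, PiLp.smul_apply, smul_eq_mul]
  calc |a * x i + b * y i| ≤ |a * x i| + |b * y i| := abs_add_le _ _
    _ = a * |x i| + b * |y i| := by rw [abs_mul, abs_mul, abs_of_nonneg ha, abs_of_nonneg hb]

theorem convex_cube (n : ℕ) (s : ℝ) : Convex ℝ (cube n s) := by
  intro x hx y hy a b ha hb hab i
  calc |(a • x + b • y) i| ≤ a * |x i| + b * |y i| := abs_comb_le x y ha hb i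
    _ ≤ a * s + b * s := by
      have h2 := hx i
      have h3 := hy i
      gcongr
    _ = s := by rw [← add_mul, hab, one_mul]

theorem convex_cross (n : ℕ) (s : ℝ) : Convex ℝ (cross n s) := by
  intro x hx y hy a b ha hb hab
  have hx' : ∑ i, |x i| ≤ s := hx
  have hy' : ∑ i, |y i| ≤ s := hy
  show ∑ i, |(a • x + b • y) i| ≤ s
  calc ∑ i, |(a • x + b • y) i| ≤ a * ∑ i, |x i| + b * ∑ i, |y i| := by
        rw [Finset.mul_sum, Finset.mul_sum, ← Finset.sum_add_distrib]
        exact Finset.sum_le_sum fun i _ => abs_comb_le x y ha hb i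
    _ ≤ a * s + b * s := by gcongr
    _ = s := by rw [← add_mul, hab, one_mul]

theorem interior_cross_nonempty (n : ℕ) {s : ℝ} (hs : 0 < s) : (interior (cross n s)).Nonempty := by
  refine ⟨0, ?_⟩
  rw [mem_interior_iff_mem_nhds, Metric.mem_nhds_iff]
  refine ⟨s / (n + 1), by positivity, ?_⟩
  intro x hx
  rw [Metric.mem_ball, dist_zero_right] at hx
  have h1 : ∀ i, |x i| ≤ s / (n + 1) := fun i => by
    have := PiLp.norm_apply_le x i
    rw [Real.norm_eq_abs] at this
    linarith
  have h2 : ∑ i, |x i| ≤ ∑ _i : Fin n, s / (n + 1) := Finset.sum_le_sum fun i _ => h1 i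
  simp only [Finset.sum_const, Finset.card_univ, Fintype.card_fin, nsmul_eq_mul] at h2
  have h3 : (n : ℝ) * (s / (n + 1)) ≤ s := by
    rw [mul_div_assoc', div_le_iff₀ (by positivity)]
    nlinarith
  exact le_trans h2 h3

theorem isSymmBody_cross (n : ℕ) {s : ℝ} (hs : 0 < s) : IsSymmBody (cross n s) :=
  ⟨isCompact_cross n s, convex_cross n s, interior_cross_nonempty n hs, fun x hx => by
    simpa [cross] using hx⟩

theorem isSymmBody_cube (n : ℕ) {s : ℝ} (hs : 0 < s) : IsSymmBody (cube n s) :=
  ⟨isCompact_cube n s, convex_cube n s,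
    (interior_cross_nonempty n hs).mono (interior_mono (cross_subset_cube n s)), fun x hx => by
    simpa [cube] using hx⟩

theorem inner_eq_sum {n : ℕ} (x y : E n) : inner ℝ x y = ∑ i, x i * y i := by
  simp [PiLp.inner_apply, mul_comm]

theorem sum_mul_le {n : ℕ} (x y : E n) {s t : ℝ} (hx : x ∈ cross n s) (hy : y ∈ cube n t)
    (ht : 0 ≤ t) : ∑ i, x i * y i ≤ s * t := by
  have hx' : ∑ i, |x i| ≤ s := hx
  calc ∑ i, x i * y i ≤ ∑ i, |x i| * t := by
        refine Finset.sum_le_sum fun i _ => ?_
        calc x i * y i ≤ |x i * y i| := le_abs_self _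
          _ = |x i| * |y i| := abs_mul _ _
          _ ≤ |x i| * t := by
            have := hy i
            gcongr
    _ = (∑ i, |x i|) * t := by rw [Finset.sum_mul]
    _ ≤ s * t := by gcongr

theorem polarBody_cross (n : ℕ) {s : ℝ} (hs : 0 < s) : polarBody (cross n s) = cube n (1 / s) := by
  ext y
  constructor
  · intro hy i
    have key : ∀ e : ℝ, |e| = s → e * y i ≤ 1 := by
      intro e he
      have hmem : EuclideanSpace.single i e ∈ cross n s := by
        show ∑ j, |(EuclideanSpace.single i e : E n) j| ≤ s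
        rw [Finset.sum_eq_single i]
        · simp [he]
        · intro j _ hj
          simp [hj]
        · simp
      have := hy _ hmem
      simpa [EuclideanSpace.inner_single_left] using this
    have h1 := key s (abs_of_pos hs)
    have h2 := key (-s) (by rw [abs_neg, abs_of_pos hs])
    rw [abs_le, le_div_iff₀ hs, neg_le, le_div_iff₀ hs]
    constructor <;> nlinarith
  · intro hy x hx
    rw [inner_eq_sum]
    have := sum_mul_le x y hx hy (by positivity)
    rwa [mul_one_div_cancel hs.ne'] at this

theorem polarBody_cube (n : ℕ) {s : ℝ} (hs : 0 < s) : polarBody (cube n s) = cross n (1 / s) := by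
  ext y
  constructor
  · intro hy
    let x : E n := WithLp.toLp 2 (fun i => if 0 ≤ y i then s else -s)
    have hx : x ∈ cube n s := by
      intro i
      show |if 0 ≤ y i then s else -s| ≤ s
      split_ifs
      · rw [abs_of_pos hs]
      · rw [abs_neg, abs_of_pos hs]
    have h1 := hy x hx
    rw [inner_eq_sum] at h1
    have h2 : ∀ i, x i * y i = s * |y i| := by
      intro i
      show (if 0 ≤ y i then s else -s) * y i = s * |y i|
      split_ifs with h
      · rw [abs_of_nonneg h]
      · rw [abs_of_neg (not_le.1 h)]; ring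
    simp only [h2, ← Finset.mul_sum] at h1
    show ∑ i, |y i| ≤ 1 / s
    rw [le_div_iff₀ hs]
    linarith
  · intro hy x hx
    rw [inner_eq_sum]
    have := sum_mul_le y x hy hx hs.le
    rw [one_div_mul_cancel hs.ne'] at this
    simpa [mul_comm] using this

theorem smul_cube (n : ℕ) {a : ℝ} (ha : 0 < a) (s : ℝ) : a • cube n s = cube n (a * s) := by
  ext x
  rw [Set.mem_smul_set_iff_inv_smul_mem₀ ha.ne']
  simp only [cube, Set.mem_ofPred_eq, PiLp.smul_apply, smul_eq_mul, abs_mul, abs_inv,
    abs_of_pos ha]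
  refine forall_congr' fun i => ?_
  rw [inv_mul_le_iff₀ ha]

theorem smul_cross (n : ℕ) {a : ℝ} (ha : 0 < a) (s : ℝ) : a • cross n s = cross n (a * s) := by
  ext x
  rw [Set.mem_smul_set_iff_inv_smul_mem₀ ha.ne']
  simp only [cross, Set.mem_ofPred_eq, PiLp.smul_apply, smul_eq_mul, abs_mul, abs_inv,
    abs_of_pos ha, ← Finset.mul_sum]
  rw [inv_mul_le_iff₀ ha]

theorem card_ge_of_cover_cube (n : ℕ) {s t : ℝ} (ht : 0 ≤ t) (hst : s < t) (c : Finset (E n))
    (hc : IsCover (cube n t) (cube n s) c) : 2 ^ n ≤ c.card := by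
  let v : (Fin n → Bool) → E n := fun σ => WithLp.toLp 2 (fun i => if σ i then t else -t)
  have hv : ∀ σ, v σ ∈ cube n t := by
    intro σ i
    show |if σ i then t else -t| ≤ t
    split_ifs
    · rw [abs_of_nonneg ht]
    · rw [abs_neg, abs_of_nonneg ht]
  choose f hf y hy hfy using fun σ => hc (v σ) (hv σ)
  have hinj : Function.Injective (fun σ => (⟨f σ, hf σ⟩ : c)) := by
    intro σ τ hστ
    have h1 : f σ = f τ := by simpa using hστ
    funext i
    by_contra hne
    have h2 : v σ i - v τ i = y σ i - y τ i := by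
      rw [hfy σ, hfy τ, h1]
      simp
    have h3 := hy σ i
    have h4 := hy τ i
    rw [abs_le] at h3 h4
    have h5 : v σ i = if σ i then t else -t := rfl
    have h6 : v τ i = if τ i then t else -t := rfl
    rw [h5, h6] at h2
    cases hs : σ i <;> cases hτ : τ i <;> simp [hs, hτ] at h2 hne <;> linarith [h3.1, h3.2, h4.1, h4.2]
  have := Fintype.card_le_of_injective _ hinj
  simpa using this

theorem exists_cover_cross (n : ℕ) (hn : 1 ≤ n) {s t : ℝ} (hs : 0 < s) (hst : s ≤ t)
    (ht : t ≤ s * (1 + 1 / n)) :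
    ∃ c : Finset (E n), c.card ≤ 2 * n + 1 ∧ IsCover (cross n t) (cross n s) c := by
  classical
  set ρ := t - s with hρ
  have hn' : (0 : ℝ) < n := by exact_mod_cast hn
  have hρ0 : 0 ≤ ρ := by linarith
  have hρ1 : ρ * n ≤ s := by
    have : t ≤ s + s / n := by
      have h : s * (1 + 1 / n) = s + s / n := by ring
      linarith
    have h2 : ρ ≤ s / n := by linarith
    rwa [le_div_iff₀ hn'] at h2
  refine ⟨insert 0 (Finset.image (fun p : Fin n × Bool =>
    (EuclideanSpace.single p.1 (if p.2 then ρ else -ρ) : E n)) Finset.univ), ?_, ?_⟩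
  · refine le_trans (Finset.card_insert_le _ _) ?_
    have := Finset.card_image_le (s := (Finset.univ : Finset (Fin n × Bool)))
      (f := fun p : Fin n × Bool => (EuclideanSpace.single p.1 (if p.2 then ρ else -ρ) : E n))
    simp only [Finset.card_univ, Fintype.card_prod, Fintype.card_fin, Fintype.card_bool] at this
    omega
  · intro x hx
    have hx' : ∑ i, |x i| ≤ t := hx
    by_cases h : ∑ i, |x i| ≤ s
    · exact ⟨0, Finset.mem_insert_self _ _, x, h, by simp⟩
    · push Not at h
      obtain ⟨i, hi⟩ : ∃ i, ρ ≤ |x i| := by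
        by_contra hcon
        push Not at hcon
        have h1 : ∑ i, |x i| ≤ ∑ _i : Fin n, ρ := Finset.sum_le_sum fun i _ => (hcon i).le
        simp only [Finset.sum_const, Finset.card_univ, Fintype.card_fin, nsmul_eq_mul] at h1
        linarith
      set e : ℝ := if 0 ≤ x i then ρ else -ρ with he
      have hmem : (EuclideanSpace.single i e : E n) ∈ insert 0 (Finset.image (fun p : Fin n × Bool =>
          (EuclideanSpace.single p.1 (if p.2 then ρ else -ρ) : E n)) Finset.univ) := by
        refine Finset.mem_insert_of_mem (Finset.mem_image.2 ⟨(i, decide (0 ≤ x i)), Finset.mem_univ _, ?_⟩)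
        simp [he]
      refine ⟨_, hmem, x - EuclideanSpace.single i e, ?_, by simp⟩
      show ∑ j, |(x - EuclideanSpace.single i e : E n) j| ≤ s
      rw [← Finset.add_sum_erase _ _ (Finset.mem_univ i)]
      have h1 : |(x - EuclideanSpace.single i e : E n) i| = |x i| - ρ := by
        simp only [PiLp.sub_apply, PiLp.single_apply, if_true]
        rw [he]
        split_ifs with h0
        · rw [abs_of_nonneg h0] at hi ⊢
          rw [abs_of_nonneg (by linarith)]
        · push Not at h0
          rw [abs_of_neg h0] at hi ⊢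
          rw [abs_of_nonpos (by linarith)]
          ring
      have h2 : ∑ j ∈ Finset.univ.erase i, |(x - EuclideanSpace.single i e : E n) j|
          = ∑ j ∈ Finset.univ.erase i, |x j| := by
        refine Finset.sum_congr rfl fun j hj => ?_
        have : j ≠ i := Finset.ne_of_mem_erase hj
        simp [this]
      rw [h1, h2]
      have h3 := Finset.add_sum_erase Finset.univ (fun j => |x j|) (Finset.mem_univ i)
      simp only at h3
      linarith


end Vale.Agent.P126
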