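import Mathlib

namespace Vale.Agent.P126

open scoped Pointwise

/-- Euclidean space of dimension `n` with the standard inner product. -/
abbrev E (n : ℕ) := EuclideanSpace ℝ (Fin n)

/-- Origin-symmetric convex body: compact, convex, nonempty interior, `K = -K`. -/
def IsSymmBody {n : ℕ} (K : Set (E n)) : Prop :=
  IsCompact K ∧ Convex ℝ K ∧ (interior K).Nonempty ∧ ∀ x ∈ K, -x ∈ K

/-- `c` is a set of centres of translates of `B` whose union contains `A`. -/
def IsCover {n : ℕ} (A B : Set (E n)) (c : Finset (E n)) : Prop :=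
  ∀ x ∈ A, ∃ z ∈ c, ∃ y ∈ B, x = z + y

/-- Covering number `N(A,B)`: least number of translates of `B` whose union contains `A`. -/
noncomputable def covNum {n : ℕ} (A B : Set (E n)) : ℕ :=
  sInf {N : ℕ | ∃ c : Finset (E n), c.card = N ∧ IsCover A B c}

/-- The polar body. -/
def polarBody {n : ℕ} (K : Set (E n)) : Set (E n) :=
  {y | ∀ x ∈ K, inner ℝ x y ≤ 1}

/-- The left inequality of the duality conjecture with constants `a`, `b`, for all dimensions and
all pairs of origin-symmetric convex bodies. -/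
def LeftDuality (a b : ℝ) : Prop :=
  ∀ n : ℕ, 1 ≤ n → ∀ K L : Set (E n), IsSymmBody K → IsSymmBody L →
    (1 / b) * Real.log (covNum (polarBody L) (a • polarBody K)) ≤ Real.log (covNum K L)

/-- The right inequality of the duality conjecture with constants `a`, `b`. -/
def RightDuality (a b : ℝ) : Prop :=
  ∀ n : ℕ, 1 ≤ n → ∀ K L : Set (E n), IsSymmBody K → IsSymmBody L →
    Real.log (covNum K L) ≤ b * Real.log (covNum (polarBody L) (a⁻¹ • polarBody K))

theorem exists_cover {n : ℕ} {A B : Set (E n)} (hA : IsCompact A) (hB : (interior B).Nonempty) :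
    ∃ c : Finset (E n), IsCover A B c := by
  obtain ⟨b0, hb0⟩ := hB
  have hopen : ∀ z : E n, IsOpen ((fun y => z + y) '' interior B) := fun z =>
    (Homeomorph.addLeft z).isOpenMap _ isOpen_interior
  have hcov : A ⊆ ⋃ z : E n, (fun y => z + y) '' interior B := by
    intro x _
    refine Set.mem_iUnion.2 ⟨x - b0, b0, hb0, by simp⟩
  obtain ⟨t, ht⟩ := hA.elim_finite_subcover _ hopen hcov
  refine ⟨t, fun x hx => ?_⟩
  obtain ⟨z, hz, y, hy, rfl⟩ : ∃ z ∈ t, ∃ y ∈ interior B, z + y = x := by
    have := ht hx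
    simp only [Set.mem_iUnion, Set.mem_image, exists_prop] at this
    exact this
  exact ⟨z, hz, y, interior_subset hy, rfl⟩

theorem covNum_le {n : ℕ} {A B : Set (E n)} {c : Finset (E n)} (h : IsCover A B c) :
    covNum A B ≤ c.card :=
  Nat.sInf_le ⟨c, rfl, h⟩

theorem le_covNum {n : ℕ} {A B : Set (E n)} {m : ℕ} (hne : ∃ c : Finset (E n), IsCover A B c)
    (h : ∀ c : Finset (E n), IsCover A B c → m ≤ c.card) : m ≤ covNum A B := by
  obtain ⟨c0, hc0⟩ := hne
  have hmem := Nat.sInf_mem (s := {N : ℕ | ∃ c : Finset (E n), c.card = N ∧ IsCover A B c})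
    ⟨c0.card, c0, rfl, hc0⟩
  obtain ⟨c, hc, hcov⟩ := hmem
  have := h c hcov
  unfold covNum
  omega

end Vale.Agent.P126
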